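import Vale.Agent.P327.Bor7

open MeasureTheory Vale.Agent.P327

namespace Vale.Agent.Results.P327.BorelMap

/-- Let `π` be an automorphism of the Turing degrees which is represented on a Borel set `P` of
reals by a Borel function `F`. If the image under `F` of the fair coin measure on `P` is not
singular with respect to the fair coin measure, then `π` is the identity. -/
theorem result (π : SetDegree ≃o SetDegree) (F : Cantor → Cantor) (hF : Measurable F)
    (P : Set Cantor) (hP : MeasurableSet P)
    (hns : ¬ Measure.MutuallySingular ((fairCoin.restrict P).map F) fairCoin)
    (hπ : ∀ A ∈ P, π (deg A) = deg (F A)) : ∀ d : SetDegree, π d = d :=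
  fun d => main_borel π hF hP hns (Filter.Eventually.of_forall hπ) d

end Vale.Agent.Results.P327.BorelMap
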