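import Vale.Agent.P327.Bor8

open MeasureTheory Vale.Agent.P327

namespace Vale.Agent.Results.P327.Dichotomy

/-- Let `π` be an automorphism of the Turing degrees which is represented on a Borel set `P` of
reals by a Borel function `F`. Then `π` is the identity, or there is a null set `N` such that
for almost every `A` in `P` every set of degree `π (deg A)` lies in `N`. -/
theorem result (π : SetDegree ≃o SetDegree) (F : Cantor → Cantor) (hF : Measurable F)
    (P : Set Cantor) (hP : MeasurableSet P) (hπ : ∀ A ∈ P, π (deg A) = deg (F A)) :
    (∀ d : SetDegree, π d = d) ∨ ∃ N : Set Cantor, fairCoin N = 0 ∧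
      ∀ᵐ A ∂fairCoin, A ∈ P → ∀ B, deg B = π (deg A) → B ∈ N :=
  dichotomy π hF hP hπ

end Vale.Agent.Results.P327.Dichotomy
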