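import Vale.Agent.P327.Main
import Vale.Agent.P327.E0b

open MeasureTheory Vale.Agent.P327

namespace Vale.Agent.Results.P327.E0Homeomorphism

/-- An automorphism of the Turing degrees which is induced by a homeomorphism of Cantor space that
preserves the fair coin measure or preserves equality modulo finite sets is the identity. It is
enough that the homeomorphism induces the automorphism on the degrees of almost all sets. -/
theorem result (π : SetDegree ≃o SetDegree) (F : Cantor ≃ₜ Cantor)
    (hF : MeasurePreserving F fairCoin fairCoin ∨ E0Invariant F)
    (hπ : ∀ᵐ A ∂fairCoin, π (deg A) = deg (F A)) : ∀ d : SetDegree, π d = d := by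
  have hmp : MeasurePreserving F fairCoin fairCoin := by
    rcases hF with h | h
    · exact h
    · exact measurePreserving_of_E0Invariant F h
  exact fun d => main_mp π F hmp hπ d

end Vale.Agent.Results.P327.E0Homeomorphism
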