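import Vale.Agent.P327.Main

open MeasureTheory Vale.Agent.P327

namespace Vale.Agent.Results.P327.Homeomorphism

/-- An automorphism of the Turing degrees which is induced by a homeomorphism of Cantor space that
preserves the fair coin measure or is uniformly `E₀`-invariant is the identity. It is enough that
the homeomorphism induces the automorphism on the degrees of almost all sets. -/
theorem result (π : SetDegree ≃o SetDegree) (F : Cantor ≃ₜ Cantor)
    (hF : MeasurePreserving F fairCoin fairCoin ∨ UniformlyE0Invariant F)
    (hπ : ∀ᵐ A ∂fairCoin, π (deg A) = deg (F A)) : ∀ d : SetDegree, π d = d := by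
  have hmp : MeasurePreserving F fairCoin fairCoin := by
    rcases hF with h | h
    · exact h
    · exact measurePreserving_of_uniformlyE0Invariant F h
  exact fun d => main_mp π F hmp hπ d

end Vale.Agent.Results.P327.Homeomorphism
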